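import Crest.Agent.Lib.Bc.BernCert.Check
/-!
# BernCert, part D: subdivision trees, the chamber, symmetric reduction

`check cfg T C4 C4 = true` (by `decide +kernel`) implies `0 ≤ formR cfg (vals cfg x) (vals cfg x')` for all points
`x, x'` with nonnegative coordinates (`cert_q4`).  No normalisation of the sum of the coordinates is needed since all the
monomials have degree `D`.  For three states use the cone `C3` (`cert_q3`, fourth coordinate `0`).
-/
set_option autoImplicit false
open Finset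

namespace Crest.Agent.Lib.Bc.BernCert

open Crest.Agent.Lib.Bc.BiCheck

/-- the subdivision tree of a pair of cones: split the generators `i, j` of the first or the second cone -/
inductive PT : Type
  | L : PT
  | X (i j : Fin 4) (l r : PT) : PT
  | Y (i j : Fin 4) (l r : PT) : PT

noncomputable def treeCheck (cfg : Cfg) (E : Env) (T : PT) : Cone → Cone → Bool :=
  PT.rec (motive := fun _ => Cone → Cone → Bool)
    (fun C C' => leafCheck cfg E C C')
    (fun i j _ _ l r C C' => Bool.rec false (Bool.rec false (r (child C j i) C') (l (child C i j) C')) (Bool.not (Nat.beq i.val j.val)))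
    (fun i j _ _ l r C C' => Bool.rec false (Bool.rec false (r C (child C' j i)) (l C (child C' i j))) (Bool.not (Nat.beq i.val j.val)))
    T

lemma treeCheck_L (cfg : Cfg) (E : Env) (C C' : Cone) : treeCheck cfg E PT.L C C' = leafCheck cfg E C C' := rfl

lemma split_spec {a b c : Bool} (i j : Fin 4)
    (h : (Bool.rec false (Bool.rec false b a) (Bool.not (Nat.beq i.val j.val)) : Bool) = true) :
    i ≠ j ∧ a = true ∧ b = true := by
  cases hb : Nat.beq i.val j.val with
  | true =>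
    rw [hb] at h
    simp at h
  | false =>
    rw [hb] at h
    have hij : i ≠ j := by
      intro e
      subst e
      simp at hb
    cases a with
    | false => simp at h
    | true =>
      cases b with
      | false => simp at h
      | true => exact ⟨hij, rfl, rfl⟩

theorem tree_sound (cfg : Cfg) (hD : ∀ m ∈ cfg.monos, m.deg = cfg.D) (hw : 0 < cfg.w) (T : PT) :
    ∀ (C C' : Cone), treeCheck cfg (mkEnv cfg) T C C' = true → ∀ (ν ν' : Fin 4 → ℝ), (∀ k, 0 ≤ ν k) → (∀ k, 0 ≤ ν' k) →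
      0 ≤ formR cfg (vals cfg (ptOf C ν)) (vals cfg (ptOf C' ν')) := by
  induction T with
  | L =>
    intro C C' h ν ν' hν hν'
    exact leaf_sound cfg hD hw C C' h ν ν' hν hν'
  | X i j l r ihl ihr =>
    intro C C' h ν ν' hν hν'
    obtain ⟨hij, hl, hr⟩ := split_spec (a := treeCheck cfg (mkEnv cfg) l (child C i j) C')
      (b := treeCheck cfg (mkEnv cfg) r (child C j i) C') (c := true) i j h
    rcases le_total (ν j) (ν i) with hle | hle
    · have := ihl _ _ hl (childCo ν i j) ν' (childCo_nonneg ν i j hν hle) hν'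
      rwa [ptOf_child C ν i j hij] at this
    · have := ihr _ _ hr (childCo ν j i) ν' (childCo_nonneg ν j i hν hle) hν'
      rwa [ptOf_child C ν j i hij.symm] at this
  | Y i j l r ihl ihr =>
    intro C C' h ν ν' hν hν'
    obtain ⟨hij, hl, hr⟩ := split_spec (a := treeCheck cfg (mkEnv cfg) l C (child C' i j))
      (b := treeCheck cfg (mkEnv cfg) r C (child C' j i)) (c := true) i j h
    rcases le_total (ν' j) (ν' i) with hle | hle
    · have := ihl _ _ hl ν (childCo ν' i j) hν (childCo_nonneg ν' i j hν' hle)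
      rwa [ptOf_child C' ν' i j hij] at this
    · have := ihr _ _ hr ν (childCo ν' j i) hν (childCo_nonneg ν' j i hν' hle)
      rwa [ptOf_child C' ν' j i hij.symm] at this

/-- the check -/
noncomputable def check (cfg : Cfg) (T : PT) (C C' : Cone) : Bool :=
  (cfg.monos.all fun m => Nat.beq m.deg cfg.D) && Nat.blt 0 cfg.w && withEnv cfg fun E => treeCheck cfg E T C C'

theorem check_sound (cfg : Cfg) (T : PT) (C C' : Cone) (h : check cfg T C C' = true) (ν ν' : Fin 4 → ℝ)
    (hν : ∀ k, 0 ≤ ν k) (hν' : ∀ k, 0 ≤ ν' k) :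
    0 ≤ formR cfg (vals cfg (ptOf C ν)) (vals cfg (ptOf C' ν')) := by
  simp only [check, Bool.and_eq_true, List.all_eq_true, withEnv_eq] at h
  obtain ⟨⟨h1, h2⟩, h3⟩ := h
  have hD : ∀ m ∈ cfg.monos, m.deg = cfg.D := fun m hm => Nat.eq_of_beq_eq_true (h1 m hm)
  have hw : 0 < cfg.w := by simpa [Nat.blt_eq] using h2
  exact tree_sound cfg hD hw T C C' h3 ν ν' hν hν'

/-! ## the chamber -/

/-- the cone of sorted points -/
def C4 : Cone := ![⟨1, 0, 0, 0⟩, ⟨1, 1, 0, 0⟩, ⟨1, 1, 1, 0⟩, ⟨1, 1, 1, 1⟩]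

/-- the cone of sorted points with last coordinate `0` -/
def C3 : Cone := ![⟨1, 0, 0, 0⟩, ⟨1, 1, 0, 0⟩, ⟨1, 1, 1, 0⟩, ⟨0, 0, 0, 0⟩]

lemma ptOf_C4 (a b c d : ℝ) : ptOf C4 ![a - b, b - c, c - d, d] = ⟨a, b, c, d⟩ := by
  simp only [ptOf, lin, C4]
  congr 1 <;> simp <;> ring

lemma ptOf_C3 (a b c : ℝ) : ptOf C3 ![a - b, b - c, c, 0] = ⟨a, b, c, 0⟩ := by
  simp only [ptOf, lin, C3]
  congr 1 <;> simp <;> ring

/-- a property of four reals which is symmetric holds if it holds for sorted reals -/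
lemma sort4 (P : ℝ → ℝ → ℝ → ℝ → Prop)
    (s12 : ∀ a b c d, P a b c d → P b a c d) (s23 : ∀ a b c d, P a b c d → P a c b d)
    (s34 : ∀ a b c d, P a b c d → P a b d c)
    (base : ∀ a b c d, b ≤ a → c ≤ b → d ≤ c → P a b c d) (a b c d : ℝ) : P a b c d := by
  -- first three sorted: insert the last one
  have step : ∀ a b c d, b ≤ a → c ≤ b → P a b c d := by
    intro a b c d h1 h2
    rcases le_total d c with h3 | h3
    · exact base a b c d h1 h2 h3
    rcases le_total d b with h4 | h4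
    · exact s34 _ _ _ _ (base a b d c h1 h4 h3)
    rcases le_total d a with h5 | h5
    · exact s34 _ _ _ _ (s23 _ _ _ _ (base a d b c h5 h4 h2))
    · exact s34 _ _ _ _ (s23 _ _ _ _ (s12 _ _ _ _ (base d a b c h5 h1 h2)))
  rcases le_total b a with h1 | h1
  · rcases le_total c b with h2 | h2
    · exact step a b c d h1 h2
    rcases le_total c a with h3 | h3
    · exact s23 _ _ _ _ (step a c b d h3 h2)
    · exact s23 _ _ _ _ (s12 _ _ _ _ (step c a b d h3 h1))
  · rcases le_total c a with h2 | h2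
    · exact s12 _ _ _ _ (step b a c d h1 h2)
    rcases le_total c b with h3 | h3
    · exact s12 _ _ _ _ (s23 _ _ _ _ (step b c a d h3 h2))
    · exact s12 _ _ _ _ (s23 _ _ _ _ (s12 _ _ _ _ (step c b a d h3 h1)))

lemma vals_congr {R : Type} [CommSemiring R] (cfg : Cfg) (p q : Pt R) (h1 : p.e1 = q.e1) (h2 : p.e2 = q.e2)
    (h3 : p.e3 = q.e3) (h4 : p.e4 = q.e4) : vals cfg p = vals cfg q := by
  unfold vals
  refine List.map_congr_left fun m _ => ?_
  simp only [Ee, h1, h2, h3, h4]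

/-- the form is nonnegative on all pairs of points with nonnegative coordinates -/
theorem cert_q4 (cfg : Cfg) (T : PT) (h : check cfg T C4 C4 = true) (a b c d a' b' c' d' : ℝ)
    (ha : 0 ≤ a) (hb : 0 ≤ b) (hc : 0 ≤ c) (hd : 0 ≤ d) (ha' : 0 ≤ a') (hb' : 0 ≤ b') (hc' : 0 ≤ c') (hd' : 0 ≤ d') :
    0 ≤ formR cfg (vals cfg ⟨a, b, c, d⟩) (vals cfg ⟨a', b', c', d'⟩) := by
  revert ha hb hc hd
  revert a b c d
  intro a b c d
  refine sort4 (fun a b c d => 0 ≤ a → 0 ≤ b → 0 ≤ c → 0 ≤ d →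
      0 ≤ formR cfg (vals cfg ⟨a, b, c, d⟩) (vals cfg ⟨a', b', c', d'⟩)) ?_ ?_ ?_ ?_ a b c d
  · intro a b c d H h1 h2 h3 h4
    rw [vals_congr cfg ⟨b, a, c, d⟩ ⟨a, b, c, d⟩ (by simp only [Pt.e1]; ring) (by simp only [Pt.e2]; ring)
      (by simp only [Pt.e3]; ring) (by simp only [Pt.e4]; ring)]
    exact H h2 h1 h3 h4
  · intro a b c d H h1 h2 h3 h4
    rw [vals_congr cfg ⟨a, c, b, d⟩ ⟨a, b, c, d⟩ (by simp only [Pt.e1]; ring) (by simp only [Pt.e2]; ring)
      (by simp only [Pt.e3]; ring) (by simp only [Pt.e4]; ring)]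
    exact H h1 h3 h2 h4
  · intro a b c d H h1 h2 h3 h4
    rw [vals_congr cfg ⟨a, b, d, c⟩ ⟨a, b, c, d⟩ (by simp only [Pt.e1]; ring) (by simp only [Pt.e2]; ring)
      (by simp only [Pt.e3]; ring) (by simp only [Pt.e4]; ring)]
    exact H h1 h2 h4 h3
  · intro a b c d h1 h2 h3 h4 h5 h6 h7
    revert ha' hb' hc' hd'
    revert a' b' c' d'
    intro a' b' c' d'
    refine sort4 (fun a' b' c' d' => 0 ≤ a' → 0 ≤ b' → 0 ≤ c' → 0 ≤ d' →
      0 ≤ formR cfg (vals cfg ⟨a, b, c, d⟩) (vals cfg ⟨a', b', c', d'⟩)) ?_ ?_ ?_ ?_ a' b' c' d'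
    · intro a b c d H h1 h2 h3 h4
      rw [vals_congr cfg ⟨b, a, c, d⟩ ⟨a, b, c, d⟩ (by simp only [Pt.e1]; ring) (by simp only [Pt.e2]; ring)
        (by simp only [Pt.e3]; ring) (by simp only [Pt.e4]; ring)]
      exact H h2 h1 h3 h4
    · intro a b c d H h1 h2 h3 h4
      rw [vals_congr cfg ⟨a, c, b, d⟩ ⟨a, b, c, d⟩ (by simp only [Pt.e1]; ring) (by simp only [Pt.e2]; ring)
        (by simp only [Pt.e3]; ring) (by simp only [Pt.e4]; ring)]
      exact H h1 h3 h2 h4
    · intro a b c d H h1 h2 h3 h4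
      rw [vals_congr cfg ⟨a, b, d, c⟩ ⟨a, b, c, d⟩ (by simp only [Pt.e1]; ring) (by simp only [Pt.e2]; ring)
        (by simp only [Pt.e3]; ring) (by simp only [Pt.e4]; ring)]
      exact H h1 h2 h4 h3
    · intro a' b' c' d' h1' h2' h3' h4' h5' h6' h7'
      have := check_sound cfg T C4 C4 h ![a - b, b - c, c - d, d] ![a' - b', b' - c', c' - d', d']
        (by intro k; fin_cases k <;> simp <;> linarith) (by intro k; fin_cases k <;> simp <;> linarith)
      rwa [ptOf_C4, ptOf_C4] at this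

end Crest.Agent.Lib.Bc.BernCert
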