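import Crest.Agent.Lib.Bc.SymInv
import Crest.Agent.Lib.Bc.BernCert.Tree
/-!
# BernCert, part E: from the relabelling average to the certified bilinear form (helper62, row 163)

Input: a polynomial `eP` in the products `p_i = x_i x'_{σ i}`, products `A_k(x) B_k(x')`, a `Cfg`.
Three kernel checks (`bridge`):
* `h1`: one check in `4` variables: `Nd * eP = ∑_λ c_λ symE4 λ` (the table `T` holds `c_λ`, `λ`);
* `h2`: for each `λ`, one check in `4` variables: `e1^pad * symM λ` in terms of `e1, e2, e3, e4`, with all monomials of degree `D`;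
* `h3`: one check in `8` variables (the `e`s of `x` and of `x'`): the bilinear form is the right one.
Result, when `e1 x = e1 x' = 1`:
`M1 * (Nd * ∑_σ eP(p_σ)) - M2 * ∑_k A_k(x) B_k(x') = M3 * formR cfg (vals cfg x) (vals cfg x')`.
-/
set_option autoImplicit false
open scoped BigOperators
namespace Crest.Agent.Lib.Bc.BernCert.Bridge

open Crest.Agent.Lib.Bc.PolyFast (E den den_add' den_sub' den_mul' den_neg' den_pow' den_var' den_num' eq_of_check')
open Crest.Agent.Lib.Bc.SymAvg
open Crest.Agent.Lib.Bc.BiCheck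
open Crest.Agent.Lib.Bc.BernCert

/-- the point of a vector -/
def pt (x : Fin 4 → ℝ) : Pt ℝ := ⟨x 0, x 1, x 2, x 3⟩

/-- the list of the four invariants of a point -/
noncomputable def evs (p : Pt ℝ) : List ℝ := [p.e1, p.e2, p.e3, p.e4]

/-- a monomial in the invariants, as an expression in the variables `off, ..., off + 3` -/
noncomputable def monE (off : ℕ) (m : Mon) : E :=
  E.var off ^ m.a * E.var (off + 1) ^ m.b * E.var (off + 2) ^ m.c * E.var (off + 3) ^ m.d

/-- a polynomial in the invariants, as an expression in the variables `off, ..., off + 3` -/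
noncomputable def polyE (off : ℕ) : List (ℤ × Mon) → E
  | [] => .num 0
  | t :: L => .num t.1 * monE off t.2 + polyE off L

/-- a monomial in the invariants, as an expression in the coordinates -/
noncomputable def monX (m : Mon) : E := e1E4 ^ m.a * e2E4 ^ m.b * e3E4 ^ m.c * e4E4 ^ m.d

/-- a polynomial in the invariants, as an expression in the coordinates -/
noncomputable def polyX : List (ℤ × Mon) → E
  | [] => .num 0
  | t :: L => .num t.1 * monX t.2 + polyX L

/-- the value of a polynomial in the invariants -/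
noncomputable def polyR : List (ℤ × Mon) → Pt ℝ → ℝ
  | [], _ => 0
  | t :: L, p => (t.1 : ℝ) * Ee t.2 p + polyR L p

lemma den_monE0 (p p' : Pt ℝ) (m : Mon) : den (evs p ++ evs p') (monE 0 m) = Ee m p := by
  simp [monE, evs, Ee, den_mul', den_pow', den_var']

lemma den_monE4 (p p' : Pt ℝ) (m : Mon) : den (evs p ++ evs p') (monE 4 m) = Ee m p' := by
  simp [monE, evs, Ee, den_mul', den_pow', den_var']

lemma den_polyE0 (p p' : Pt ℝ) (L : List (ℤ × Mon)) : den (evs p ++ evs p') (polyE 0 L) = polyR L p := by
  induction L with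
  | nil => simp [polyE, polyR, den_num']
  | cons t L ih => simp only [polyE, polyR, den_add', den_mul', den_num', den_monE0, ih]

lemma den_polyE4 (p p' : Pt ℝ) (L : List (ℤ × Mon)) : den (evs p ++ evs p') (polyE 4 L) = polyR L p' := by
  induction L with
  | nil => simp [polyE, polyR, den_num']
  | cons t L ih => simp only [polyE, polyR, den_add', den_mul', den_num', den_monE4, ih]

lemma den_e1 (x : Fin 4 → ℝ) : den (vec4 x) e1E4 = (pt x).e1 := by
  simp [e1E4, vec4, pt, Pt.e1, den_add', den_var']

lemma den_e2 (x : Fin 4 → ℝ) : den (vec4 x) e2E4 = (pt x).e2 := by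
  simp [e2E4, vec4, pt, Pt.e2, den_add', den_mul', den_var']

lemma den_e3 (x : Fin 4 → ℝ) : den (vec4 x) e3E4 = (pt x).e3 := by
  simp [e3E4, vec4, pt, Pt.e3, den_add', den_mul', den_var']

lemma den_e4 (x : Fin 4 → ℝ) : den (vec4 x) e4E4 = (pt x).e4 := by
  simp [e4E4, vec4, pt, Pt.e4, den_mul', den_var']

lemma den_monX (x : Fin 4 → ℝ) (m : Mon) : den (vec4 x) (monX m) = Ee m (pt x) := by
  simp only [monX, Ee, den_mul', den_pow', den_e1, den_e2, den_e3, den_e4]

lemma den_polyX (x : Fin 4 → ℝ) (L : List (ℤ × Mon)) : den (vec4 x) (polyX L) = polyR L (pt x) := by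
  induction L with
  | nil => simp [polyX, polyR, den_num']
  | cons t L ih => simp only [polyX, polyR, den_add', den_mul', den_num', den_monX, ih]

/-- a row of the table: `c_λ`, `λ`, the padding of `e1`, `e1^pad * symM λ` in the invariants -/
structure Row where
  coef : ℤ
  l0 : ℕ
  l1 : ℕ
  l2 : ℕ
  l3 : ℕ
  pad : ℕ
  poly : List (ℤ × Mon)

/-- the table of `diag4` -/
def toL (T : List Row) : List (ℤ × ℕ × ℕ × ℕ × ℕ) := T.map fun r => (r.coef, r.l0, r.l1, r.l2, r.l3)

/-- the check of a row -/
noncomputable def rowOK (r : Row) : Bool :=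
  PolyFast.check 4 (e1E4 ^ r.pad * symE4 r.l0 r.l1 r.l2 r.l3) (polyX r.poly)

/-- the bilinear form of the table in the invariants -/
noncomputable def bilE : List Row → E
  | [] => .num 0
  | r :: T => .num r.coef * (polyE 0 r.poly * polyE 4 r.poly) + bilE T

lemma row_val (r : Row) (hr : rowOK r = true) (x : Fin 4 → ℝ) (hx : (pt x).e1 = 1) :
    symM ![r.l0, r.l1, r.l2, r.l3] x = polyR r.poly (pt x) := by
  have h := eq_of_check' (n := 4) (vec4 x) rfl _ _ hr
  simp only [den_mul', den_pow', den_e1, hx, one_pow, one_mul, den_symE4, den_polyX] at h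
  exact h

theorem bil4_eq (T : List Row) (hT : T.all rowOK = true) (x x' : Fin 4 → ℝ) (hx : (pt x).e1 = 1) (hx' : (pt x').e1 = 1) :
    bil4 (toL T) x x' = den (evs (pt x) ++ evs (pt x')) (bilE T) := by
  induction T with
  | nil => simp [toL, bil4, bilE, den_num']
  | cons r T ih =>
    simp only [List.all_cons, Bool.and_eq_true] at hT
    have := ih hT.2
    simp only [toL, List.map_cons, bil4, bilE, den_add', den_mul', den_num', den_polyE0, den_polyE4]
    rw [show (List.map (fun r : Row => (r.coef, r.l0, r.l1, r.l2, r.l3)) T) = toL T from rfl, this,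
      row_val r hT.1 x hx, row_val r hT.1 x' hx']

/-- products `A_k(x) B_k(x')` as an expression -/
noncomputable def crossE : List (List (ℤ × Mon) × List (ℤ × Mon)) → E
  | [] => .num 0
  | t :: L => polyE 0 t.1 * polyE 4 t.2 + crossE L

/-- the sum of products `A_k(x) B_k(x')` -/
noncomputable def crossR : List (List (ℤ × Mon) × List (ℤ × Mon)) → Pt ℝ → Pt ℝ → ℝ
  | [], _, _ => 0
  | t :: L, p, p' => polyR t.1 p * polyR t.2 p' + crossR L p p'

lemma den_crossE (p p' : Pt ℝ) (L : List (List (ℤ × Mon) × List (ℤ × Mon))) :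
    den (evs p ++ evs p') (crossE L) = crossR L p p' := by
  induction L with
  | nil => simp [crossE, crossR, den_num']
  | cons t L ih => simp only [crossE, crossR, den_add', den_mul', den_polyE0, den_polyE4, ih]

/-- dot product of expressions -/
noncomputable def prE : List E → List E → E
  | x :: xs, y :: ys => x * y + prE xs ys
  | [], _ => .num 0
  | _ :: _, [] => .num 0

lemma den_prE (vs : List ℝ) (a b : List E) : den vs (prE a b) = pr (a.map (den vs)) (b.map (den vs)) := by
  induction a generalizing b with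
  | nil => simp [prE, pr, den_num']
  | cons x xs ih =>
    cases b with
    | nil => simp [prE, pr, den_num']
    | cons y ys => simp only [prE, pr, List.map_cons, den_add', den_mul', ih]

/-- one half of the form as an expression -/
noncomputable def halfE (monos : List Mon) (c : List (List ℕ)) : E :=
  prE (monos.map (monE 0)) (c.map fun row => prE (row.map fun n : ℕ => E.num (n : ℤ)) (monos.map (monE 4)))

/-- the form as an expression -/
noncomputable def formE (cfg : Cfg) : E := halfE cfg.monos cfg.cp - halfE cfg.monos cfg.cm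

lemma den_halfE (p p' : Pt ℝ) (monos : List Mon) (c : List (List ℕ)) :
    den (evs p ++ evs p') (halfE monos c)
      = pr (monos.map fun m => Ee m p) (c.map fun row => pr (row.map Nat.cast) (monos.map fun m => Ee m p')) := by
  unfold halfE
  rw [den_prE]
  congr 1
  · rw [List.map_map]
    exact List.map_congr_left fun m _ => den_monE0 p p' m
  · rw [List.map_map]
    refine List.map_congr_left fun row _ => ?_
    simp only [Function.comp_apply]
    rw [den_prE]
    congr 1
    · rw [List.map_map]
      refine List.map_congr_left fun n _ => ?_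
      simp [den_num']
    · rw [List.map_map]
      exact List.map_congr_left fun m _ => den_monE4 p p' m

lemma den_formE (p p' : Pt ℝ) (cfg : Cfg) :
    den (evs p ++ evs p') (formE cfg) = formR cfg (vals cfg p) (vals cfg p') := by
  simp only [formE, den_sub', den_halfE, formR, vals]

/-- **The bridge.** Three kernel checks give the identity between the relabelling average and the form. -/
theorem bridge (eP : E) (Nd : ℤ) (T : List Row) (X : List (List (ℤ × Mon) × List (ℤ × Mon))) (M1 M2 M3 : ℤ) (cfg : Cfg)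
    (h1 : PolyFast.check 4 (.num Nd * eP) (linE4 (toL T)) = true)
    (h2 : T.all rowOK = true)
    (h3 : PolyFast.check 8 (.num M1 * bilE T - .num M2 * crossE X) (.num M3 * formE cfg) = true)
    (x x' : Fin 4 → ℝ) (hx : (pt x).e1 = 1) (hx' : (pt x').e1 = 1) :
    (M1 : ℝ) * ((Nd : ℝ) * ∑ σ : Equiv.Perm (Fin 4), den (vec4 (pSig x x' σ)) eP) - (M2 : ℝ) * crossR X (pt x) (pt x')
      = (M3 : ℝ) * formR cfg (vals cfg (pt x)) (vals cfg (pt x')) := by
  rw [diag4 eP Nd (toL T) h1 x x', bil4_eq T h2 x x' hx hx']
  have h := eq_of_check' (n := 8) (evs (pt x) ++ evs (pt x')) rfl _ _ h3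
  simp only [den_sub', den_mul', den_num', den_crossE, den_formE] at h
  exact h

lemma pt_e1 {x : Fin 4 → ℝ} (hx : x ∈ Simp 4) : (pt x).e1 = 1 := by
  have := hx.2
  rw [Fin.sum_univ_four] at this
  exact this

/-- **The bridge with the certificate**: on the simplex, the products are below the average. -/
theorem bridge_le (eP : E) (Nd : ℤ) (T : List Row) (X : List (List (ℤ × Mon) × List (ℤ × Mon))) (M1 M2 M3 : ℤ) (cfg : Cfg)
    (h1 : PolyFast.check 4 (.num Nd * eP) (linE4 (toL T)) = true)
    (h2 : T.all rowOK = true)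
    (h3 : PolyFast.check 8 (.num M1 * bilE T - .num M2 * crossE X) (.num M3 * formE cfg) = true)
    (tr : PT) (h4 : check cfg tr C4 C4 = true) (hM3 : 0 ≤ M3)
    {x x' : Fin 4 → ℝ} (hx : x ∈ Simp 4) (hx' : x' ∈ Simp 4) :
    (M2 : ℝ) * crossR X (pt x) (pt x')
      ≤ (M1 : ℝ) * ((Nd : ℝ) * ∑ σ : Equiv.Perm (Fin 4), den (vec4 (pSig x x' σ)) eP) := by
  have h := bridge eP Nd T X M1 M2 M3 cfg h1 h2 h3 x x' (pt_e1 hx) (pt_e1 hx')
  have hc := cert_q4 cfg tr h4 (x 0) (x 1) (x 2) (x 3) (x' 0) (x' 1) (x' 2) (x' 3)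
    (hx.1 _) (hx.1 _) (hx.1 _) (hx.1 _) (hx'.1 _) (hx'.1 _) (hx'.1 _) (hx'.1 _)
  have hM : (0 : ℝ) ≤ (M3 : ℝ) := by exact_mod_cast hM3
  have := mul_nonneg hM hc
  change 0 ≤ (M3 : ℝ) * formR cfg (vals cfg (pt x)) (vals cfg (pt x')) at this
  linarith

end Crest.Agent.Lib.Bc.BernCert.Bridge
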