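import Crest.Agent.Lib.Bc.BernCert.Pair
/-!
# BernCert, part C: the kernel check of a bilinear form on a pair of cones, and its soundness

`check cfg T C C' = true` (by `decide +kernel`) implies
`0 ≤ formR cfg (E (ptOf C ν)) (E (ptOf C' ν'))` for all `ν, ν' ≥ 0`, where `E p` is the list of the monomials `cfg.monos`.
All numbers are packed: one big number per polynomial in the second point, so one coefficient test is one `Nat.land`.
-/
set_option autoImplicit false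
open Finset

namespace Crest.Agent.Lib.Bc.BernCert

open Crest.Agent.Lib.Bc.BiCheck

/-- the data of a bilinear form: `(cp - cm)` in the monomials `monos`, all of degree `D` -/
structure Cfg where
  D : ℕ
  w : ℕ
  wx : ℕ
  monos : List Mon
  cp : List (List ℕ)
  cm : List (List ℕ)

/-- the form on two lists of values -/
noncomputable def formR (cfg : Cfg) (Ex Ey : List ℝ) : ℝ :=
  pr Ex (cfg.cp.map fun row => pr (row.map Nat.cast) Ey) - pr Ex (cfg.cm.map fun row => pr (row.map Nat.cast) Ey)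

/-- the values of the monomials at a point of a commutative semiring -/
def vals {R : Type} [CommSemiring R] (cfg : Cfg) (p : Pt R) : List R := cfg.monos.map fun m => Ee m p

/-- the point `(1, t1, t2, t3)` of a cone, in `ℕ` -/
def ptN (C : Cone) (t1 t2 t3 : ℕ) : Pt ℕ :=
  ⟨(C 0).a + (C 1).a * t1 + (C 2).a * t2 + (C 3).a * t3,
   (C 0).b + (C 1).b * t1 + (C 2).b * t2 + (C 3).b * t3,
   (C 0).c + (C 1).c * t1 + (C 2).c * t2 + (C 3).c * t3,
   (C 0).d + (C 1).d * t1 + (C 2).d * t2 + (C 3).d * t3⟩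

lemma ptN_eq (C : Cone) (t1 t2 t3 : ℕ) : ptOf (R := ℕ) C ![1, t1, t2, t3] = ptN C t1 t2 t3 := by
  simp [ptOf, lin, ptN]

/-- strict computation of the monomials at a point -/
noncomputable def monVals {α : Type} (monos : List Mon) (p : Pt ℕ) (k : List ℕ → α) : α :=
  app p.a fun a => app p.b fun b => app p.c fun c => app p.d fun d =>
  app (a + b + c + d) fun e1 =>
  app (a * b + a * c + a * d + b * c + b * d + c * d) fun e2 =>
  app (a * b * c + a * b * d + a * c * d + b * c * d) fun e3 =>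
  app (a * b * c * d) fun e4 =>
  forceL (monos.map fun m => Nat.mul (Nat.mul (Nat.mul (Nat.pow e1 m.a) (Nat.pow e2 m.b)) (Nat.pow e3 m.c))
      (Nat.pow e4 m.d)) k

lemma monVals_eq {α : Type} (monos : List Mon) (p : Pt ℕ) (k : List ℕ → α) :
    monVals monos p k = k (monos.map fun m => Ee m p) := by
  simp only [monVals, app_eq, forceL_eq]
  rfl

/-- the constants of a check -/
structure Env where
  ty1 : ℕ
  ty2 : ℕ
  ty3 : ℕ
  tx1 : ℕ
  tx2 : ℕ
  tx3 : ℕ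
  H : ℕ
  lim : ℕ
  mask : ℕ
  D1 : ℕ
  D2 : ℕ
  Om : ℕ

/-- `∑ i, j, k ≤ D, H B^pos` -/
noncomputable def omegaK (D H B : ℕ) : ℕ :=
  sumR (D + 1) fun i => sumR (D + 1) fun j => sumR (D + 1) fun k =>
    Bool.rec (Nat.mul H (Nat.pow B (i + (D + 1) * j + (D + 1) ^ 2 * k))) 0 (Nat.blt D (i + j + k))

lemma omegaK_eq (D w : ℕ) :
    omegaK D (2 ^ (w - 1)) (2 ^ w) = ∑ τ ∈ s3 D, 2 ^ (w - 1) * (2 ^ w) ^ pos D τ := by
  have hb : ∀ (a b : ℕ) (x : ℕ), (Bool.rec x 0 (Nat.blt a b) : ℕ) = if b ≤ a then x else 0 := by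
    intro a b x
    by_cases h : b ≤ a
    · have : Nat.blt a b = false := by
        simp only [Nat.blt_eq, Bool.eq_false_iff, ne_eq]
        omega
      rw [this, if_pos h]
    · have : Nat.blt a b = true := by
        simp only [Nat.blt_eq]
        omega
      rw [this, if_neg h]
  unfold omegaK s3
  simp only [sumR_eq]
  rw [Finset.sum_filter, Finset.sum_product]
  refine Finset.sum_congr rfl fun i _ => ?_
  rw [Finset.sum_product]
  refine Finset.sum_congr rfl fun j _ => ?_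
  refine Finset.sum_congr rfl fun k _ => ?_
  rw [hb]
  rfl

/-- the constants, as a plain function -/
noncomputable def mkEnv (cfg : Cfg) : Env :=
  ⟨2 ^ cfg.w, (2 ^ cfg.w) ^ (cfg.D + 1), (2 ^ cfg.w) ^ ((cfg.D + 1) ^ 2),
   2 ^ cfg.wx, (2 ^ cfg.wx) ^ (cfg.D + 1), (2 ^ cfg.wx) ^ ((cfg.D + 1) ^ 2),
   2 ^ (cfg.w - 1), 2 ^ cfg.wx, 2 ^ cfg.wx - 1, cfg.D + 1, (cfg.D + 1) ^ 2,
   omegaK cfg.D (2 ^ (cfg.w - 1)) (2 ^ cfg.w)⟩

/-- the constants, strictly computed -/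
noncomputable def withEnv {α : Type} (cfg : Cfg) (k : Env → α) : α :=
  app (2 ^ cfg.w) fun ty1 => app (ty1 ^ (cfg.D + 1)) fun ty2 => app (ty1 ^ ((cfg.D + 1) ^ 2)) fun ty3 =>
  app (2 ^ cfg.wx) fun tx1 => app (tx1 ^ (cfg.D + 1)) fun tx2 => app (tx1 ^ ((cfg.D + 1) ^ 2)) fun tx3 =>
  app (2 ^ (cfg.w - 1)) fun H => app (tx1 - 1) fun mask =>
  app (cfg.D + 1) fun D1 => app ((cfg.D + 1) ^ 2) fun D2 =>
  app (omegaK cfg.D H ty1) fun Om =>
  k ⟨ty1, ty2, ty3, tx1, tx2, tx3, H, tx1, mask, D1, D2, Om⟩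

lemma withEnv_eq {α : Type} (cfg : Cfg) (k : Env → α) : withEnv cfg k = k (mkEnv cfg) := rfl

/-- the test of one coefficient of the first point -/
noncomputable def testAt (E : Env) (wx : ℕ) (Xh Sp Sm Sp1 Sm1 : List ℕ) (p : ℕ) : Bool :=
  forceL (Xh.map (digit wx E.mask p)) fun d =>
    app (dotL d Sp) fun Ap => app (dotL d Sm) fun Am =>
      Bool.and (Nat.blt (dotL d Sp1) E.H) (Bool.and (Nat.blt (dotL d Sm1) E.H)
        (Nat.beq (Nat.land (Nat.sub (Nat.add Ap E.Om) Am) E.Om) E.Om))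

lemma testAt_spec (E : Env) (wx : ℕ) (Xh Sp Sm Sp1 Sm1 : List ℕ) (p : ℕ)
    (h : testAt E wx Xh Sp Sm Sp1 Sm1 p = true) :
    pr (Xh.map (digit wx E.mask p)) Sp1 < E.H ∧ pr (Xh.map (digit wx E.mask p)) Sm1 < E.H ∧
      (pr (Xh.map (digit wx E.mask p)) Sp + E.Om - pr (Xh.map (digit wx E.mask p)) Sm) &&& E.Om = E.Om := by
  simp only [testAt, forceL_eq, app_eq, dotL_eq] at h
  have h' : (Nat.blt (pr (Xh.map (digit wx E.mask p)) Sp1) E.H &&
      (Nat.blt (pr (Xh.map (digit wx E.mask p)) Sm1) E.H &&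
        Nat.beq (Nat.land (Nat.sub (Nat.add (pr (Xh.map (digit wx E.mask p)) Sp) E.Om)
          (pr (Xh.map (digit wx E.mask p)) Sm)) E.Om) E.Om)) = true := h
  simp only [Bool.and_eq_true, Nat.blt_eq] at h'
  exact ⟨h'.1, h'.2.1, Nat.eq_of_beq_eq_true h'.2.2⟩

/-- the loop over all coefficients of the first point -/
noncomputable def loopK (D : ℕ) (E : Env) (wx : ℕ) (Xh Sp Sm Sp1 Sm1 : List ℕ) : Bool :=
  allR E.D1 fun i => allR E.D1 fun j => allR E.D1 fun k =>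
    Bool.rec (testAt E wx Xh Sp Sm Sp1 Sm1 (i + E.D1 * j + E.D2 * k)) true (Nat.blt D (i + j + k))

lemma loopK_spec (cfg : Cfg) (Xh Sp Sm Sp1 Sm1 : List ℕ)
    (h : loopK cfg.D (mkEnv cfg) cfg.wx Xh Sp Sm Sp1 Sm1 = true) (τ : ℕ × ℕ × ℕ) (hτ : τ ∈ s3 cfg.D) :
    testAt (mkEnv cfg) cfg.wx Xh Sp Sm Sp1 Sm1 (pos cfg.D τ) = true := by
  have hs := (mem_s3 _ _).mp hτ
  have h1 := allR_eq_true _ _ h τ.1 (show τ.1 < cfg.D + 1 by omega)
  have h2 := allR_eq_true _ _ h1 τ.2.1 (show τ.2.1 < cfg.D + 1 by omega)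
  have h3 := allR_eq_true _ _ h2 τ.2.2 (show τ.2.2 < cfg.D + 1 by omega)
  have hb : Nat.blt cfg.D (τ.1 + τ.2.1 + τ.2.2) = false := by
    simp only [Nat.blt_eq, Bool.eq_false_iff, ne_eq]
    omega
  rw [hb] at h3
  exact h3

/-- the check of a pair of cones -/
noncomputable def leafCheck (cfg : Cfg) (E : Env) (C C' : Cone) : Bool :=
  monVals cfg.monos (ptN C 1 1 1) fun X1 =>
  monVals cfg.monos (ptN C E.tx1 E.tx2 E.tx3) fun Xh =>
  monVals cfg.monos (ptN C' 1 1 1) fun Y1 =>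
  monVals cfg.monos (ptN C' E.ty1 E.ty2 E.ty3) fun Yh =>
  forceL (cfg.cp.map fun row => dotL row Yh) fun Sp =>
  forceL (cfg.cm.map fun row => dotL row Yh) fun Sm =>
  forceL (cfg.cp.map fun row => dotL row Y1) fun Sp1 =>
  forceL (cfg.cm.map fun row => dotL row Y1) fun Sm1 =>
  Bool.and (X1.all fun v => Nat.blt v E.lim) (loopK cfg.D E cfg.wx Xh Sp Sm Sp1 Sm1)

lemma Ee_expand {S : Type} [CommSemiring S] (D : ℕ) (C : Cone) (m : Mon) (hm : m.deg = D) (v : Fin 4 → S) :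
    Ee m (ptOf C v) = ∑ τ ∈ s3 D, (cf D (polyE C m) τ : S) * monS D τ v := by
  have h1 := hom_Ee (MvPolynomial.eval₂Hom (Nat.castRingHom S) v) v (by intro k; simp) C m
  rw [← h1]
  have hh := polyE_hom C m
  rw [hm] at hh
  exact expand D _ hh v

lemma monS_nonneg (D : ℕ) (τ : ℕ × ℕ × ℕ) (v : Fin 4 → ℝ) (hv : ∀ k, 0 ≤ v k) : 0 ≤ monS D τ v := by
  unfold monS
  have := hv 0; have := hv 1; have := hv 2; have := hv 3
  positivity

/-- the bilinear expansion on the real side -/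
lemma form_real (cfg : Cfg) (cfX cfY : Mon → (ℕ × ℕ × ℕ) → ℕ) (wx wy : (ℕ × ℕ × ℕ) → ℝ) (rows : List (List ℕ)) :
    pr (cfg.monos.map fun m => ∑ τ ∈ s3 cfg.D, (cfX m τ : ℝ) * wx τ)
        (rows.map fun row => pr (row.map Nat.cast) (cfg.monos.map fun m => ∑ τ ∈ s3 cfg.D, (cfY m τ : ℝ) * wy τ))
      = ∑ τ ∈ s3 cfg.D, (∑ τ' ∈ s3 cfg.D, (AA cfg.monos cfY rows (cfg.monos.map fun m => cfX m τ) τ' : ℝ) * wy τ') * wx τ := by
  rw [pr_sum_left]
  refine Finset.sum_congr rfl fun τ _ => ?_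
  rw [pr_mul_left]
  congr 1
  have := pr_rows (S := ℝ) (s3 cfg.D) cfg.monos cfY wy rows (cfg.monos.map fun m => cfX m τ)
  rw [← this]
  simp only [List.map_map]
  rfl

theorem leaf_sound (cfg : Cfg) (hD : ∀ m ∈ cfg.monos, m.deg = cfg.D) (hw : 0 < cfg.w) (C C' : Cone)
    (h : leafCheck cfg (mkEnv cfg) C C' = true) (ν ν' : Fin 4 → ℝ) (hν : ∀ k, 0 ≤ ν k) (hν' : ∀ k, 0 ≤ ν' k) :
    0 ≤ formR cfg (vals cfg (ptOf C ν)) (vals cfg (ptOf C' ν')) := by
  classical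
  set D := cfg.D with hDdef
  set cfX : Mon → (ℕ × ℕ × ℕ) → ℕ := fun m => cf D (polyE C m) with hcfX
  set cfY : Mon → (ℕ × ℕ × ℕ) → ℕ := fun m => cf D (polyE C' m) with hcfY
  -- evaluations in ℕ
  have evX : ∀ (t1 t2 t3 : ℕ), (cfg.monos.map fun m => Ee m (ptN C t1 t2 t3))
      = cfg.monos.map fun m => ∑ τ ∈ s3 D, cfX m τ * monS D τ (![1, t1, t2, t3] : Fin 4 → ℕ) := by
    intro t1 t2 t3
    refine List.map_congr_left fun m hm => ?_
    rw [← ptN_eq, Ee_expand D C m (hD m hm)]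
    simp [hcfX]
  have evY : ∀ (t1 t2 t3 : ℕ), (cfg.monos.map fun m => Ee m (ptN C' t1 t2 t3))
      = cfg.monos.map fun m => ∑ τ ∈ s3 D, cfY m τ * monS D τ (![1, t1, t2, t3] : Fin 4 → ℕ) := by
    intro t1 t2 t3
    refine List.map_congr_left fun m hm => ?_
    rw [← ptN_eq, Ee_expand D C' m (hD m hm)]
    simp [hcfY]
  simp only [leafCheck, monVals_eq, forceL_eq] at h
  have h' := h
  change (Bool.and _ _) = true at h'
  rw [Bool.and_eq_true] at h'
  obtain ⟨hX1, hloop⟩ := h'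
  -- bound of the coefficients of the first point
  have hcfb : ∀ m ∈ cfg.monos, ∀ τ ∈ s3 D, cfX m τ < 2 ^ cfg.wx := by
    intro m hm τ hτ
    have h1 := List.all_eq_true.mp hX1 (Ee m (ptN C 1 1 1)) (List.mem_map.mpr ⟨m, hm, rfl⟩)
    have h2 : Ee m (ptN C 1 1 1) < 2 ^ cfg.wx := by
      simpa [mkEnv, Nat.blt_eq] using h1
    rw [← ptN_eq, Ee_expand D C m (hD m hm)] at h2
    have h3 : cfX m τ ≤ ∑ τ ∈ s3 D, cf D (polyE C m) τ * monS D τ (![1, 1, 1, 1] : Fin 4 → ℕ) := by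
      have : cfX m τ = cf D (polyE C m) τ * monS D τ (![1, 1, 1, 1] : Fin 4 → ℕ) := by
        rw [monS_one, mul_one]
      rw [this]
      exact Finset.single_le_sum (f := fun τ => cf D (polyE C m) τ * monS D τ (![1, 1, 1, 1] : Fin 4 → ℕ))
        (fun _ _ => Nat.zero_le _) hτ
    simp only [Nat.cast_id] at h2
    omega
  -- coefficient comparison
  have hcmp : ∀ τ ∈ s3 D, ∀ τ' ∈ s3 D,
      AA cfg.monos cfY cfg.cm (cfg.monos.map fun m => cfX m τ) τ' ≤ AA cfg.monos cfY cfg.cp (cfg.monos.map fun m => cfX m τ) τ' := by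
    intro τ hτ
    have ht := testAt_spec _ _ _ _ _ _ _ _ (loopK_spec cfg _ _ _ _ _ hloop τ hτ)
    have hd : ((cfg.monos.map fun m => Ee m (ptN C (mkEnv cfg).tx1 (mkEnv cfg).tx2 (mkEnv cfg).tx3)).map
        (digit cfg.wx (mkEnv cfg).mask (pos D τ))) = cfg.monos.map fun m => cfX m τ := by
      rw [List.map_map]
      refine List.map_congr_left fun m hm => ?_
      show digit cfg.wx (2 ^ cfg.wx - 1) (pos D τ) (Ee m (ptN C (2 ^ cfg.wx) ((2 ^ cfg.wx) ^ (D + 1)) ((2 ^ cfg.wx) ^ ((D + 1) ^ 2)))) = _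
      rw [← ptN_eq, Ee_expand D C m (hD m hm)]
      simp only [Nat.cast_id, monS_kron]
      exact digit_spec (s3 D) (pos D) (pos_inj D) cfg.wx (cfX m) (hcfb m hm) τ hτ
    rw [hd] at ht
    obtain ⟨h1, h2, h3⟩ := ht
    set u := cfg.monos.map fun m => cfX m τ with hu
    -- the packed values
    have pk : ∀ (rows : List (List ℕ)), pr u (rows.map fun row => pr row (cfg.monos.map fun m => Ee m (ptN C' (mkEnv cfg).ty1 (mkEnv cfg).ty2 (mkEnv cfg).ty3)))
        = ∑ τ' ∈ s3 D, AA cfg.monos cfY rows u τ' * (2 ^ cfg.w) ^ pos D τ' := by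
      intro rows
      rw [evY]
      have := pr_rows_nat (s3 D) cfg.monos cfY (fun τ' => (2 ^ cfg.w) ^ pos D τ') rows u
      rw [← this]
      have hk : ∀ m, (∑ τ ∈ s3 D, cfY m τ * monS D τ (![1, (mkEnv cfg).ty1, (mkEnv cfg).ty2, (mkEnv cfg).ty3] : Fin 4 → ℕ))
          = ∑ τ ∈ s3 D, cfY m τ * (2 ^ cfg.w) ^ pos D τ := by
        intro m
        refine Finset.sum_congr rfl fun τ' _ => ?_
        rw [← monS_kron]
        rfl
      simp only [hk]
    have pk1 : ∀ (rows : List (List ℕ)), pr u (rows.map fun row => pr row (cfg.monos.map fun m => Ee m (ptN C' 1 1 1)))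
        = ∑ τ' ∈ s3 D, AA cfg.monos cfY rows u τ' := by
      intro rows
      rw [evY]
      have := pr_rows_nat (s3 D) cfg.monos cfY (fun _ => 1) rows u
      simp only [mul_one] at this
      rw [← this]
      simp only [monS_one, mul_one]
    have hdot : ∀ (rows : List (List ℕ)) (Y : List ℕ), (rows.map fun row => dotL row Y) = rows.map fun row => pr row Y := by
      intro rows Y
      refine List.map_congr_left fun row _ => dotL_eq row Y
    simp only [hdot] at h1 h2 h3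
    rw [pk1] at h1 h2
    rw [pk, pk] at h3
    have hA : ∀ τ' ∈ s3 D, AA cfg.monos cfY cfg.cp u τ' < 2 ^ (cfg.w - 1) := by
      intro τ' hτ'
      exact lt_of_le_of_lt (Finset.single_le_sum (f := fun τ' => AA cfg.monos cfY cfg.cp u τ') (fun _ _ => Nat.zero_le _) hτ') h1
    have hC : ∀ τ' ∈ s3 D, AA cfg.monos cfY cfg.cm u τ' < 2 ^ (cfg.w - 1) := by
      intro τ' hτ'
      exact lt_of_le_of_lt (Finset.single_le_sum (f := fun τ' => AA cfg.monos cfY cfg.cm u τ') (fun _ _ => Nat.zero_le _) hτ') h2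
    have hOm : (mkEnv cfg).Om = ∑ τ' ∈ s3 D, 2 ^ (cfg.w - 1) * (2 ^ cfg.w) ^ pos D τ' := omegaK_eq cfg.D cfg.w
    rw [hOm] at h3
    exact cmp_pack (s3 D) (s3 D) (Finset.Subset.refl _) (pos D) (pos_inj D) cfg.w hw _ _ hA hC h3
  -- the real side
  have exR : ∀ (C : Cone) (v : Fin 4 → ℝ), vals cfg (ptOf C v)
      = cfg.monos.map fun m => ∑ τ ∈ s3 D, (cf D (polyE C m) τ : ℝ) * monS D τ v := by
    intro C v
    refine List.map_congr_left fun m hm => ?_
    exact Ee_expand D C m (hD m hm) v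
  unfold formR
  rw [exR C ν, exR C' ν', form_real cfg cfX cfY, form_real cfg cfX cfY]
  rw [← Finset.sum_sub_distrib]
  refine Finset.sum_nonneg fun τ hτ => ?_
  rw [← sub_mul]
  refine mul_nonneg ?_ (monS_nonneg D τ ν hν)
  rw [← Finset.sum_sub_distrib]
  refine Finset.sum_nonneg fun τ' hτ' => ?_
  rw [← sub_mul]
  refine mul_nonneg ?_ (monS_nonneg D τ' ν' hν')
  have := hcmp τ hτ τ' hτ'
  have h' : ((AA cfg.monos cfY cfg.cm (cfg.monos.map fun m => cfX m τ) τ' : ℕ) : ℝ)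
      ≤ (AA cfg.monos cfY cfg.cp (cfg.monos.map fun m => cfX m τ) τ' : ℕ) := by exact_mod_cast this
  linarith

end Crest.Agent.Lib.Bc.BernCert
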