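import Crest.Agent.Lib.Bc.BernCert.Poly
/-!
# BernCert, part B: pairing of lists, linear algebra of the bilinear form, digit reading
-/
set_option autoImplicit false
open Finset

namespace Crest.Agent.Lib.Bc.BernCert

open Crest.Agent.Lib.Bc.BiCheck

/-- pairing of two lists -/
def pr {S : Type} [Semiring S] : List S → List S → S
  | x :: xs, y :: ys => x * y + pr xs ys
  | [], _ => 0
  | _ :: _, [] => 0

section pr
variable {S : Type} [CommSemiring S] {ι κ : Type}

lemma pr_sum_right (s : Finset κ) (u : List S) (l : List ι) (g : κ → ι → S) :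
    pr u (l.map fun j => ∑ τ ∈ s, g τ j) = ∑ τ ∈ s, pr u (l.map (g τ)) := by
  induction u generalizing l with
  | nil => simp [pr]
  | cons x xs ih =>
    cases l with
    | nil => simp [pr]
    | cons j l =>
      simp only [List.map_cons, pr]
      rw [ih, Finset.mul_sum, Finset.sum_add_distrib]

lemma pr_sum_left (s : Finset κ) (v : List S) (l : List ι) (g : κ → ι → S) :
    pr (l.map fun j => ∑ τ ∈ s, g τ j) v = ∑ τ ∈ s, pr (l.map (g τ)) v := by
  induction l generalizing v with
  | nil => simp [pr]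
  | cons j l ih =>
    cases v with
    | nil => simp [pr]
    | cons y ys =>
      simp only [List.map_cons, pr]
      rw [ih, Finset.sum_mul, Finset.sum_add_distrib]

lemma pr_mul_right (u : List S) (l : List ι) (g : ι → S) (c : S) :
    pr u (l.map fun j => g j * c) = pr u (l.map g) * c := by
  induction u generalizing l with
  | nil => simp [pr]
  | cons x xs ih =>
    cases l with
    | nil => simp [pr]
    | cons j l =>
      simp only [List.map_cons, pr]
      rw [ih]; ring

lemma pr_mul_left (v : List S) (l : List ι) (g : ι → S) (c : S) :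
    pr (l.map fun j => g j * c) v = pr (l.map g) v * c := by
  induction l generalizing v with
  | nil => simp [pr]
  | cons j l ih =>
    cases v with
    | nil => simp [pr]
    | cons y ys =>
      simp only [List.map_cons, pr]
      rw [ih]; ring

lemma cast_pr (u v : List ℕ) : ((pr u v : ℕ) : S) = pr (u.map Nat.cast) (v.map Nat.cast) := by
  induction u generalizing v with
  | nil => simp [pr]
  | cons x xs ih =>
    cases v with
    | nil => simp [pr]
    | cons y ys =>
      simp only [List.map_cons, pr]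
      push_cast
      rw [ih]

/-- the value of a row at a coefficient -/
def rowV (monos : List Mon) (cfm : Mon → κ → ℕ) (row : List ℕ) (τ : κ) : ℕ :=
  pr row (monos.map fun m => cfm m τ)

lemma pr_row (s : Finset κ) (monos : List Mon) (cfm : Mon → κ → ℕ) (wt : κ → S) (row : List ℕ) :
    pr (row.map Nat.cast) (monos.map fun m => ∑ τ ∈ s, (cfm m τ : S) * wt τ)
      = ∑ τ ∈ s, (rowV monos cfm row τ : S) * wt τ := by
  rw [pr_sum_right]
  refine Finset.sum_congr rfl fun τ _ => ?_
  rw [pr_mul_right, rowV, cast_pr]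
  simp only [List.map_map]
  rfl

/-- the coefficient `A` -/
def AA (monos : List Mon) (cfm : Mon → κ → ℕ) (rows : List (List ℕ)) (u : List ℕ) (τ : κ) : ℕ :=
  pr u (rows.map fun row => rowV monos cfm row τ)

lemma pr_rows (s : Finset κ) (monos : List Mon) (cfm : Mon → κ → ℕ) (wt : κ → S)
    (rows : List (List ℕ)) (u : List ℕ) :
    pr (u.map Nat.cast) (rows.map fun row => pr (row.map Nat.cast) (monos.map fun m => ∑ τ ∈ s, (cfm m τ : S) * wt τ))
      = ∑ τ ∈ s, (AA monos cfm rows u τ : S) * wt τ := by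
  simp only [pr_row]
  rw [pr_sum_right]
  refine Finset.sum_congr rfl fun τ _ => ?_
  rw [pr_mul_right, AA, cast_pr]
  simp only [List.map_map]
  rfl

lemma pr_rows_nat (s : Finset κ) (monos : List Mon) (cfm : Mon → κ → ℕ) (wt : κ → ℕ)
    (rows : List (List ℕ)) (u : List ℕ) :
    pr u (rows.map fun row => pr row (monos.map fun m => ∑ τ ∈ s, cfm m τ * wt τ))
      = ∑ τ ∈ s, AA monos cfm rows u τ * wt τ := by
  have := pr_rows (S := ℕ) s monos cfm wt rows u
  have hc : ∀ l : List ℕ, l.map (Nat.cast : ℕ → ℕ) = l := by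
    intro l
    have : (Nat.cast : ℕ → ℕ) = id := by funext n; simp
    rw [this, List.map_id]
  simp only [hc, Nat.cast_id] at this
  exact this

end pr

lemma dotL_eq (u v : List ℕ) : dotL u v = pr u v := by
  induction u generalizing v with
  | nil => rfl
  | cons x xs ih =>
    cases v with
    | nil => rfl
    | cons y ys =>
      show Nat.add (Nat.mul x y) (dotL xs ys) = _
      rw [ih]; rfl

/-! ## positions and digit reading -/

/-- the position of a triple in the packed number -/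
def pos (D : ℕ) (τ : ℕ × ℕ × ℕ) : ℕ := τ.1 + (D + 1) * τ.2.1 + (D + 1) ^ 2 * τ.2.2

lemma pos_inj (D : ℕ) : Set.InjOn (pos D) (s3 D : Set (ℕ × ℕ × ℕ)) := by
  rintro ⟨i, j, k⟩ h ⟨i', j', k'⟩ h' e
  have h1 : i + j + k ≤ D := (mem_s3 D _).mp (by exact_mod_cast h)
  have h2 : i' + j' + k' ≤ D := (mem_s3 D _).mp (by exact_mod_cast h')
  simp only [pos] at e
  have e0 : i + (D + 1) * (j + (D + 1) * k) = i' + (D + 1) * (j' + (D + 1) * k') := by
    have : ∀ a b c : ℕ, a + (D + 1) * b + (D + 1) ^ 2 * c = a + (D + 1) * (b + (D + 1) * c) := by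
      intro a b c; ring
    rw [← this, ← this]; exact e
  have m1 := congrArg (· % (D + 1)) e0
  simp only [Nat.add_mul_mod_self_left] at m1
  rw [Nat.mod_eq_of_lt (by omega), Nat.mod_eq_of_lt (by omega)] at m1
  subst m1
  have e1 : j + (D + 1) * k = j' + (D + 1) * k' := by
    have := Nat.add_left_cancel e0
    exact Nat.eq_of_mul_eq_mul_left (by omega) this
  have m2 := congrArg (· % (D + 1)) e1
  simp only [Nat.add_mul_mod_self_left] at m2
  rw [Nat.mod_eq_of_lt (by omega), Nat.mod_eq_of_lt (by omega)] at m2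
  subst m2
  have e2 : (D + 1) * k = (D + 1) * k' := Nat.add_left_cancel e1
  have := Nat.eq_of_mul_eq_mul_left (by omega) e2
  subst this
  rfl

lemma monS_kron (D w : ℕ) (τ : ℕ × ℕ × ℕ) :
    monS D τ (![1, 2 ^ w, (2 ^ w) ^ (D + 1), (2 ^ w) ^ ((D + 1) ^ 2)] : Fin 4 → ℕ) = (2 ^ w) ^ pos D τ := by
  simp only [monS, pos]
  generalize (2 : ℕ) ^ w = B
  show 1 ^ _ * B ^ τ.1 * (B ^ (D + 1)) ^ τ.2.1 * (B ^ ((D + 1) ^ 2)) ^ τ.2.2
    = B ^ (τ.1 + (D + 1) * τ.2.1 + (D + 1) ^ 2 * τ.2.2)
  rw [one_pow, one_mul, ← pow_mul, ← pow_mul, ← pow_add, ← pow_add]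

lemma monS_one (D : ℕ) (τ : ℕ × ℕ × ℕ) :
    monS D τ (![1, 1, 1, 1] : Fin 4 → ℕ) = 1 := by
  simp [monS]

/-- reading the digit at position `p` -/
noncomputable def digit (wx mask p N : ℕ) : ℕ := Nat.land (Nat.shiftRight N (Nat.mul wx p)) mask

lemma digit_spec {ι : Type} [DecidableEq ι] (s : Finset ι) (ps : ι → ℕ) (hps : Set.InjOn ps (s : Set ι))
    (w : ℕ) (f : ι → ℕ) (hf : ∀ i ∈ s, f i < 2 ^ w) (i₀ : ι) (hi₀ : i₀ ∈ s) :
    digit w (2 ^ w - 1) (ps i₀) (∑ i ∈ s, f i * (2 ^ w) ^ ps i) = f i₀ := by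
  show ((∑ i ∈ s, f i * (2 ^ w) ^ ps i) >>> (w * ps i₀)) &&& (2 ^ w - 1) = f i₀
  rw [Nat.and_two_pow_sub_one_eq_mod]
  apply Nat.eq_of_testBit_eq
  intro j
  rw [Nat.testBit_mod_two_pow, Nat.testBit_shiftRight]
  by_cases hj : j < w
  · rw [testBit_pack s ps hps w f hf i₀ hi₀ j hj]
    simp [hj]
  · have hlt : f i₀ < 2 ^ j :=
      lt_of_lt_of_le (hf i₀ hi₀) (Nat.pow_le_pow_right (by norm_num) (by omega))
    rw [Nat.testBit_lt_two_pow hlt]
    simp [hj]

end Crest.Agent.Lib.Bc.BernCert
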