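import Crest.Agent.Lib.Bc.BiCheck.Digits
/-!
# BernCert, part A: symmetric functions of a point, cones, homogeneous expansions

Row 163 (helper21).  A bilinear form in the monomials `e1^a e2^b e3^c e4^d` of two points of a cone is certified
nonnegative by the nonnegativity of its coefficients in the cone coordinates (Bernstein form), checked by the
kernel on packed big numbers.
-/
set_option autoImplicit false
open Finset

namespace Crest.Agent.Lib.Bc.BernCert

/-- a point with 4 coordinates -/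
structure Pt (R : Type) where
  a : R
  b : R
  c : R
  d : R

section sym
variable {R : Type} [CommSemiring R]

def Pt.e1 (p : Pt R) : R := p.a + p.b + p.c + p.d
def Pt.e2 (p : Pt R) : R := p.a * p.b + p.a * p.c + p.a * p.d + p.b * p.c + p.b * p.d + p.c * p.d
def Pt.e3 (p : Pt R) : R := p.a * p.b * p.c + p.a * p.b * p.d + p.a * p.c * p.d + p.b * p.c * p.d
def Pt.e4 (p : Pt R) : R := p.a * p.b * p.c * p.d

end sym

/-- exponents of a monomial in `e1, e2, e3, e4` -/
structure Mon where
  a : ℕ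
  b : ℕ
  c : ℕ
  d : ℕ

def Mon.deg (m : Mon) : ℕ := m.a + 2 * m.b + 3 * m.c + 4 * m.d

section ee
variable {R : Type} [CommSemiring R]

/-- the monomial -/
def Ee (m : Mon) (p : Pt R) : R := p.e1 ^ m.a * p.e2 ^ m.b * p.e3 ^ m.c * p.e4 ^ m.d

/-- linear form with natural coefficients -/
def lin (f : Fin 4 → ℕ) (v : Fin 4 → R) : R :=
  (f 0 : R) * v 0 + (f 1 : R) * v 1 + (f 2 : R) * v 2 + (f 3 : R) * v 3

end ee

/-- a cone: four generators with natural coordinates -/
abbrev Cone := Fin 4 → Pt ℕ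

section cone
variable {R : Type} [CommSemiring R]

/-- the point of the cone with coordinates `v` -/
def ptOf (C : Cone) (v : Fin 4 → R) : Pt R :=
  ⟨lin (fun k => (C k).a) v, lin (fun k => (C k).b) v, lin (fun k => (C k).c) v, lin (fun k => (C k).d) v⟩

end cone

/-- sum of two points -/
def addPt (p q : Pt ℕ) : Pt ℕ := ⟨p.a + q.a, p.b + q.b, p.c + q.c, p.d + q.d⟩

/-- the child cone: generator `j` is replaced by the mediant of `i` and `j` -/
def child (C : Cone) (i j : Fin 4) : Cone := Function.update C j (addPt (C i) (C j))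

/-- the new coordinates in the child -/
noncomputable def childCo (v : Fin 4 → ℝ) (i j : Fin 4) : Fin 4 → ℝ := Function.update v i (v i - v j)

lemma lin_child (f : Fin 4 → ℕ) (v : Fin 4 → ℝ) (i j : Fin 4) (hij : i ≠ j) :
    lin (Function.update f j (f i + f j)) (childCo v i j) = lin f v := by
  unfold lin childCo
  fin_cases i <;> fin_cases j <;> simp_all [Function.update] <;> ring

lemma ptOf_child (C : Cone) (v : Fin 4 → ℝ) (i j : Fin 4) (hij : i ≠ j) :
    ptOf (child C i j) (childCo v i j) = ptOf C v := by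
  have key : ∀ g : Pt ℕ → ℕ, (∀ p q, g (addPt p q) = g p + g q) →
      (fun k => g (child C i j k)) = Function.update (fun k => g (C k)) j (g (C i) + g (C j)) := by
    intro g hg
    funext k
    by_cases hk : k = j
    · subst hk; simp [child, hg]
    · simp [child, Function.update_of_ne hk]
  unfold ptOf
  rw [key Pt.a (fun _ _ => rfl), key Pt.b (fun _ _ => rfl), key Pt.c (fun _ _ => rfl), key Pt.d (fun _ _ => rfl)]
  congr 1
  · exact lin_child (fun k => (C k).a) v i j hij
  · exact lin_child (fun k => (C k).b) v i j hij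
  · exact lin_child (fun k => (C k).c) v i j hij
  · exact lin_child (fun k => (C k).d) v i j hij

lemma childCo_nonneg (v : Fin 4 → ℝ) (i j : Fin 4) (hv : ∀ k, 0 ≤ v k) (hij : v j ≤ v i) :
    ∀ k, 0 ≤ childCo v i j k := by
  intro k
  unfold childCo
  by_cases hk : k = i
  · subst hk; simpa using hij
  · rw [Function.update_of_ne hk]; exact hv k

/-! ## polynomials in the cone coordinates -/

abbrev MP := MvPolynomial (Fin 4) ℕ

/-- the polynomial of a monomial on a cone -/
noncomputable def polyE (C : Cone) (m : Mon) : MP := Ee m (ptOf C (fun k => MvPolynomial.X k))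

lemma hom_Ee {S : Type} [CommSemiring S] (φ : MP →+* S) (v : Fin 4 → S)
    (hφ : ∀ k, φ (MvPolynomial.X k) = v k) (C : Cone) (m : Mon) :
    φ (polyE C m) = Ee m (ptOf C v) := by
  simp only [polyE, Ee, Pt.e1, Pt.e2, Pt.e3, Pt.e4, ptOf, lin, map_add, map_mul, map_pow, map_natCast, hφ]

lemma lin_hom (f : Fin 4 → ℕ) :
    (lin f (fun k => MvPolynomial.X k) : MP).IsHomogeneous 1 := by
  have h : ∀ (n : ℕ) (k : Fin 4), (((n : ℕ) : MP) * MvPolynomial.X k).IsHomogeneous 1 := by
    intro n k
    have := MvPolynomial.isHomogeneous_C_mul_X (σ := Fin 4) (R := ℕ) n k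
    simpa using this
  unfold lin
  exact ((((h _ _).add (h _ _)).add (h _ _)).add (h _ _))

lemma polyE_hom (C : Cone) (m : Mon) : (polyE C m).IsHomogeneous m.deg := by
  set A : MP := lin (fun k => (C k).a) (fun k => MvPolynomial.X k)
  set B : MP := lin (fun k => (C k).b) (fun k => MvPolynomial.X k)
  set D : MP := lin (fun k => (C k).c) (fun k => MvPolynomial.X k)
  set F : MP := lin (fun k => (C k).d) (fun k => MvPolynomial.X k)
  have hA : A.IsHomogeneous 1 := lin_hom _
  have hB : B.IsHomogeneous 1 := lin_hom _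
  have hD : D.IsHomogeneous 1 := lin_hom _
  have hF : F.IsHomogeneous 1 := lin_hom _
  have e1 : (A + B + D + F).IsHomogeneous 1 := ((hA.add hB).add hD).add hF
  have e2 : (A * B + A * D + A * F + B * D + B * F + D * F).IsHomogeneous 2 :=
    (((((hA.mul hB).add (hA.mul hD)).add (hA.mul hF)).add (hB.mul hD)).add (hB.mul hF)).add (hD.mul hF)
  have e3 : (A * B * D + A * B * F + A * D * F + B * D * F).IsHomogeneous 3 :=
    ((((hA.mul hB).mul hD).add ((hA.mul hB).mul hF)).add ((hA.mul hD).mul hF)).add ((hB.mul hD).mul hF)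
  have e4 : (A * B * D * F).IsHomogeneous 4 := ((hA.mul hB).mul hD).mul hF
  have := (((e1.pow m.a).mul (e2.pow m.b)).mul (e3.pow m.c)).mul (e4.pow m.d)
  have hd : 1 * m.a + 2 * m.b + 3 * m.c + 4 * m.d = m.deg := by unfold Mon.deg; ring
  rw [hd] at this
  exact this

/-! ## expansions of homogeneous polynomials -/

/-- exponent triples (of variables 1, 2, 3) of the monomials of degree `D` -/
def s3 (D : ℕ) : Finset (ℕ × ℕ × ℕ) :=
  (range (D + 1) ×ˢ range (D + 1) ×ˢ range (D + 1)).filter (fun τ => τ.1 + τ.2.1 + τ.2.2 ≤ D)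

lemma mem_s3 (D : ℕ) (τ : ℕ × ℕ × ℕ) : τ ∈ s3 D ↔ τ.1 + τ.2.1 + τ.2.2 ≤ D := by
  simp only [s3, mem_filter, mem_product, mem_range]
  constructor
  · exact fun h => h.2
  · intro h; exact ⟨⟨by omega, by omega, by omega⟩, h⟩

/-- the full exponent vector of a triple -/
noncomputable def expo (D : ℕ) (τ : ℕ × ℕ × ℕ) : Fin 4 →₀ ℕ :=
  Finsupp.equivFunOnFinite.symm ![D - (τ.1 + τ.2.1 + τ.2.2), τ.1, τ.2.1, τ.2.2]

lemma expo_apply (D : ℕ) (τ : ℕ × ℕ × ℕ) (k : Fin 4) :
    expo D τ k = (![D - (τ.1 + τ.2.1 + τ.2.2), τ.1, τ.2.1, τ.2.2] : Fin 4 → ℕ) k := rfl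

lemma expo_inj (D : ℕ) : Function.Injective (expo D) := by
  rintro ⟨i, j, k⟩ ⟨i', j', k'⟩ h
  have h1 := DFunLike.congr_fun h 1
  have h2 := DFunLike.congr_fun h 2
  have h3 := DFunLike.congr_fun h 3
  simp only [expo_apply] at h1 h2 h3
  simp at h1 h2 h3
  subst h1 h2 h3
  rfl

/-- the coefficient of a triple -/
noncomputable def cf (D : ℕ) (p : MP) (τ : ℕ × ℕ × ℕ) : ℕ := MvPolynomial.coeff (expo D τ) p

/-- the monomial of a triple -/
def monS {S : Type} [CommSemiring S] (D : ℕ) (τ : ℕ × ℕ × ℕ) (v : Fin 4 → S) : S :=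
  v 0 ^ (D - (τ.1 + τ.2.1 + τ.2.2)) * v 1 ^ τ.1 * v 2 ^ τ.2.1 * v 3 ^ τ.2.2

lemma expand {S : Type} [CommSemiring S] (D : ℕ) (p : MP) (hp : p.IsHomogeneous D) (v : Fin 4 → S) :
    MvPolynomial.eval₂ (Nat.castRingHom S) v p = ∑ τ ∈ s3 D, (cf D p τ : S) * monS D τ v := by
  classical
  rw [MvPolynomial.eval₂_eq']
  have hsub : p.support ⊆ (s3 D).image (expo D) := by
    intro d hd
    have hdeg : d.degree = D := by
      by_contra hne
      exact (MvPolynomial.mem_support_iff.mp hd) (hp.coeff_eq_zero hne)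
    rw [Finsupp.degree_eq_sum, Fin.sum_univ_four] at hdeg
    refine mem_image.mpr ⟨(d 1, d 2, d 3), ?_, ?_⟩
    · rw [mem_s3]; show d 1 + d 2 + d 3 ≤ D; omega
    · ext k
      rw [expo_apply]
      fin_cases k
      · show D - (d 1 + d 2 + d 3) = d 0; omega
      · rfl
      · rfl
      · rfl
  rw [Finset.sum_subset hsub (by
    intro d _ hd
    have : MvPolynomial.coeff d p = 0 := by
      by_contra hne
      exact hd (MvPolynomial.mem_support_iff.mpr hne)
    simp [this])]
  rw [Finset.sum_image (fun _ _ _ _ h => expo_inj D h)]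
  refine Finset.sum_congr rfl fun τ _ => ?_
  rw [Fin.prod_univ_four]
  simp only [expo_apply, cf, monS]
  simp [mul_assoc]

end Crest.Agent.Lib.Bc.BernCert
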