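import Crest.Agent.Lib.Bc.BernCert.Tree
/-!
# BernCert, part G: positivity on pairs of cones as a statement, glued from several checks

The kernel keeps its caches during one declaration, so a big tree is checked in chunks: `pos_of_check` for each chunk, and
`pos_X`, `pos_Y` to glue them; `cert_of_pos` is `cert_q4` for the glued statement.
-/
set_option autoImplicit false
open Finset

namespace Crest.Agent.Lib.Bc.BernCert

/-- the form is nonnegative on a pair of cones -/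
def Pos (cfg : Cfg) (C C' : Cone) : Prop :=
  ∀ ν ν' : Fin 4 → ℝ, (∀ k, 0 ≤ ν k) → (∀ k, 0 ≤ ν' k) →
    0 ≤ formR cfg (vals cfg (ptOf C ν)) (vals cfg (ptOf C' ν'))

theorem pos_of_check (cfg : Cfg) (T : PT) (C C' : Cone) (h : check cfg T C C' = true) : Pos cfg C C' :=
  fun ν ν' hν hν' => check_sound cfg T C C' h ν ν' hν hν'

theorem pos_X (cfg : Cfg) (C C' : Cone) (i j : Fin 4) (hij : i ≠ j) (hl : Pos cfg (child C i j) C')
    (hr : Pos cfg (child C j i) C') : Pos cfg C C' := by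
  intro ν ν' hν hν'
  rcases le_total (ν j) (ν i) with hle | hle
  · have := hl (childCo ν i j) ν' (childCo_nonneg ν i j hν hle) hν'
    rwa [ptOf_child C ν i j hij] at this
  · have := hr (childCo ν j i) ν' (childCo_nonneg ν j i hν hle) hν'
    rwa [ptOf_child C ν j i hij.symm] at this

theorem pos_Y (cfg : Cfg) (C C' : Cone) (i j : Fin 4) (hij : i ≠ j) (hl : Pos cfg C (child C' i j))
    (hr : Pos cfg C (child C' j i)) : Pos cfg C C' := by
  intro ν ν' hν hν'
  rcases le_total (ν' j) (ν' i) with hle | hle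
  · have := hl ν (childCo ν' i j) hν (childCo_nonneg ν' i j hν' hle)
    rwa [ptOf_child C' ν' i j hij] at this
  · have := hr ν (childCo ν' j i) hν (childCo_nonneg ν' j i hν' hle)
    rwa [ptOf_child C' ν' j i hij.symm] at this

/-- the form is nonnegative on all pairs of points with nonnegative coordinates -/
theorem cert_of_pos (cfg : Cfg) (h : Pos cfg C4 C4) (a b c d a' b' c' d' : ℝ)
    (ha : 0 ≤ a) (hb : 0 ≤ b) (hc : 0 ≤ c) (hd : 0 ≤ d) (ha' : 0 ≤ a') (hb' : 0 ≤ b') (hc' : 0 ≤ c') (hd' : 0 ≤ d') :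
    0 ≤ formR cfg (vals cfg ⟨a, b, c, d⟩) (vals cfg ⟨a', b', c', d'⟩) := by
  revert ha hb hc hd
  revert a b c d
  intro a b c d
  refine sort4 (fun a b c d => 0 ≤ a → 0 ≤ b → 0 ≤ c → 0 ≤ d →
      0 ≤ formR cfg (vals cfg ⟨a, b, c, d⟩) (vals cfg ⟨a', b', c', d'⟩)) ?_ ?_ ?_ ?_ a b c d
  · intro a b c d H h1 h2 h3 h4
    rw [vals_congr cfg ⟨b, a, c, d⟩ ⟨a, b, c, d⟩ (by simp only [Pt.e1]; ring) (by simp only [Pt.e2]; ring)
      (by simp only [Pt.e3]; ring) (by simp only [Pt.e4]; ring)]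
    exact H h2 h1 h3 h4
  · intro a b c d H h1 h2 h3 h4
    rw [vals_congr cfg ⟨a, c, b, d⟩ ⟨a, b, c, d⟩ (by simp only [Pt.e1]; ring) (by simp only [Pt.e2]; ring)
      (by simp only [Pt.e3]; ring) (by simp only [Pt.e4]; ring)]
    exact H h1 h3 h2 h4
  · intro a b c d H h1 h2 h3 h4
    rw [vals_congr cfg ⟨a, b, d, c⟩ ⟨a, b, c, d⟩ (by simp only [Pt.e1]; ring) (by simp only [Pt.e2]; ring)
      (by simp only [Pt.e3]; ring) (by simp only [Pt.e4]; ring)]
    exact H h1 h2 h4 h3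
  · intro a b c d h1 h2 h3 h4 h5 h6 h7
    revert ha' hb' hc' hd'
    revert a' b' c' d'
    intro a' b' c' d'
    refine sort4 (fun a' b' c' d' => 0 ≤ a' → 0 ≤ b' → 0 ≤ c' → 0 ≤ d' →
      0 ≤ formR cfg (vals cfg ⟨a, b, c, d⟩) (vals cfg ⟨a', b', c', d'⟩)) ?_ ?_ ?_ ?_ a' b' c' d'
    · intro a b c d H h1 h2 h3 h4
      rw [vals_congr cfg ⟨b, a, c, d⟩ ⟨a, b, c, d⟩ (by simp only [Pt.e1]; ring) (by simp only [Pt.e2]; ring)
        (by simp only [Pt.e3]; ring) (by simp only [Pt.e4]; ring)]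
      exact H h2 h1 h3 h4
    · intro a b c d H h1 h2 h3 h4
      rw [vals_congr cfg ⟨a, c, b, d⟩ ⟨a, b, c, d⟩ (by simp only [Pt.e1]; ring) (by simp only [Pt.e2]; ring)
        (by simp only [Pt.e3]; ring) (by simp only [Pt.e4]; ring)]
      exact H h1 h3 h2 h4
    · intro a b c d H h1 h2 h3 h4
      rw [vals_congr cfg ⟨a, b, d, c⟩ ⟨a, b, c, d⟩ (by simp only [Pt.e1]; ring) (by simp only [Pt.e2]; ring)
        (by simp only [Pt.e3]; ring) (by simp only [Pt.e4]; ring)]
      exact H h1 h2 h4 h3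
    · intro a' b' c' d' h1' h2' h3' h4' h5' h6' h7'
      have := h ![a - b, b - c, c - d, d] ![a' - b', b' - c', c' - d', d']
        (by intro k; fin_cases k <;> simp <;> linarith) (by intro k; fin_cases k <;> simp <;> linarith)
      rwa [ptOf_C4, ptOf_C4] at this

end Crest.Agent.Lib.Bc.BernCert
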