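import Crest.Agent.Lib.Bc.BernCert.Tree
/-!
# BernCert, part F: splitting a big `check` into many small kernel checks (helper88, row 163)

The kernel cache of one declaration is only freed at its end, and one leaf pair of a big form retains hundreds of MB.
So: `subCheck cfg T C C'` checks one subtree on one pair of cones, one declaration per subtree (`by decide +kernel`);
`subCheck_X`, `subCheck_Y` glue the pieces without any computation, `check_of_sub` gives the `check` that `cert_q4` and
`Bridge.bridge_le` ask for.
-/
set_option autoImplicit false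

namespace Crest.Agent.Lib.Bc.BernCert

noncomputable def subCheck (cfg : Cfg) (T : PT) (C C' : Cone) : Bool :=
  withEnv cfg fun E => treeCheck cfg E T C C'

lemma subCheck_eq (cfg : Cfg) (T : PT) (C C' : Cone) :
    subCheck cfg T C C' = treeCheck cfg (mkEnv cfg) T C C' := by
  unfold subCheck
  rw [withEnv_eq]
theorem check_of_sub {cfg : Cfg} {T : PT} {C C' : Cone} (h1 : (cfg.monos.all fun m => Nat.beq m.deg cfg.D) = true)
    (h2 : Nat.blt 0 cfg.w = true) (h : subCheck cfg T C C' = true) : check cfg T C C' = true := by
  unfold check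
  unfold subCheck at h
  rw [h1, h2, h]
  rfl
lemma treeCheck_X (cfg : Cfg) (E : Env) (i j : Fin 4) (l r : PT) (C C' : Cone) :
    treeCheck cfg E (PT.X i j l r) C C' = (Bool.rec false (Bool.rec false (treeCheck cfg E r (child C j i) C')
    (treeCheck cfg E l (child C i j) C')) (Bool.not (Nat.beq i.val j.val)) : Bool) := rfl
lemma treeCheck_Y (cfg : Cfg) (E : Env) (i j : Fin 4) (l r : PT) (C C' : Cone) :
    treeCheck cfg E (PT.Y i j l r) C C' = (Bool.rec false (Bool.rec false (treeCheck cfg E r C (child C' j i))
    (treeCheck cfg E l C (child C' i j))) (Bool.not (Nat.beq i.val j.val)) : Bool) := rfl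
lemma subCheck_X {cfg : Cfg} {i j : Fin 4} {l r : PT} {C C' : Cone} (hij : Nat.beq i.val j.val = false)
    (hl : subCheck cfg l (child C i j) C' = true) (hr : subCheck cfg r (child C j i) C' = true) :
    subCheck cfg (PT.X i j l r) C C' = true := by
  rw [subCheck_eq] at hl hr ⊢
  rw [treeCheck_X, hij, hl, hr]
  rfl
lemma subCheck_Y {cfg : Cfg} {i j : Fin 4} {l r : PT} {C C' : Cone} (hij : Nat.beq i.val j.val = false)
    (hl : subCheck cfg l C (child C' i j) = true) (hr : subCheck cfg r C (child C' j i) = true) :
    subCheck cfg (PT.Y i j l r) C C' = true := by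
  rw [subCheck_eq] at hl hr ⊢
  rw [treeCheck_Y, hij, hl, hr]
  rfl
end Crest.Agent.Lib.Bc.BernCert
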